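import Vale.Agent.P124.Final

namespace Vale.Agent.Results.P124.Counterexample

theorem result : ∃ (X Y : Type) (_ : NormedAddCommGroup X) (_ : NormedSpace ℝ X)
    (_ : CompleteSpace X) (_ : TopologicalSpace.SeparableSpace X)
    (_ : NormedAddCommGroup Y) (_ : NormedSpace ℝ Y)
    (_ : CompleteSpace Y) (_ : TopologicalSpace.SeparableSpace Y),
    (∃ (f : X → Y) (c C : ℝ), Function.Bijective f ∧ 0 < c ∧ c ≤ C ∧
      ∀ x x' : X, c * ‖x - x'‖ ≤ ‖f x - f x'‖ ∧ ‖f x - f x'‖ ≤ C * ‖x - x'‖) ∧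
    ¬ ∃ T : X →L[ℝ] Y, Function.Bijective T :=
  Vale.Agent.P124.main

end Vale.Agent.Results.P124.Counterexample
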